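import Vale.Agent.P297.Jj.Setup
import Vale.Agent.P297.Gg.H516.Triv
import Vale.Agent.P297.Gg.H878.Choice

/-!
Zero-cycles on the surfaces dominated by a pencil of hyperelliptic curves whose Jacobian is
generated by rational quotients.
-/

set_option linter.unusedSectionVars false
set_option linter.style.haveILetI false

open CategoryTheory AlgebraicGeometry IntermediateField Polynomial

namespace Vale.Agent.P297.Jj

open Vale.Agent.P297 Vale.Agent.P297.H839 Vale.Agent.P297.H516 Vale.Agent.P297.H878
  Vale.Agent.P297.Gen Vale.Agent.P297.Gg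

/-- **Zero-cycles on pencils of hyperelliptic curves without regular forms of trace zero in all of
the rational quotients.** -/
theorem forms_traced {K : Type} [Field K] [Algebra ℂ K] {g : ℕ} {l x y : K}
    {f : (IntermediateField.adjoin ℂ {l})[X]}
    (h : HPencil g l x y f) (hg : 1 ≤ g) {ι : Type} (F : ι → IntermediateField ℂ K)
    (hlF : ∀ b, l ∈ F b) (hr : ∀ b, IsRational (F b))
    (δ : Derivation (IntermediateField.adjoin ℂ {l}) K K) (hδ : δ x = 1)
    (w : ι → K) (hw : ∀ b, w b ∈ F b) (hw0 : ∀ b, δ (w b) ≠ 0)
    (htr : ∀ a : (IntermediateField.adjoin ℂ {l})[X], a.natDegree < g →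
      (∀ b, Algebra.trace (F b) K (aeval x a / (y * δ (w b))) = 0) → a = 0)
    (K₀ : Type) [Field K₀] [Algebra ℂ K₀] (e : K₀ →ₐ[ℂ] K) : PointsEquivalent K₀ := by
  classical
  by_cases hex : ∃ b, Module.finrank (F b) K = 1
  · obtain ⟨b, hb⟩ := hex
    exact dominated_of_finrank_one (F b) (hr b) hb K₀ e
  have hle : ∀ b, IntermediateField.adjoin ℂ {l} ≤ F b := by
    intro b k hk
    refine (IntermediateField.adjoin_le_iff (S := {l}) (T := F b)).2 ?_ hk
    intro k' hk'
    rw [Set.mem_singleton_iff.1 hk']
    exact hlF b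
  obtain ⟨b, xi, hxi, hxi0, hne⟩ := choice (k := IntermediateField.adjoin ℂ {l}) (W := K) (g := g)
    (fun b j => (Algebra.trace (F b) K (x ^ (j : ℕ) / (y * δ (w b))) : K)) (by
    intro u hu
    let a : (IntermediateField.adjoin ℂ {l})[X] :=
      ∑ j : Fin g, Polynomial.C (u j) * X ^ (j : ℕ)
    have ha : a = 0 := by
      apply htr
      · have h1 : a.natDegree ≤ g - 1 := by
          refine Polynomial.natDegree_sum_le_of_forall_le _ _ fun j _ => ?_
          refine (Polynomial.natDegree_C_mul_X_pow_le _ _).trans ?_
          have := j.2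
          omega
        omega
      · intro b
        have h3 : aeval x a / (y * δ (w b)) =
            ∑ j : Fin g, (⟨(u j : K), hle b (u j).2⟩ : F b) •
              (x ^ (j : ℕ) / (y * δ (w b))) := by
          rw [map_sum, Finset.sum_div]
          refine Finset.sum_congr rfl fun j _ => ?_
          rw [map_mul, map_pow, aeval_C, aeval_X, mul_div_assoc]
          rfl
        rw [h3, map_sum]
        apply Subtype.ext
        have h5 := hu b
        refine Eq.trans ?_ h5
        rw [AddSubmonoidClass.coe_finset_sum]
        refine Finset.sum_congr rfl fun j _ => ?_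
        rw [map_smul]
        rfl
    funext j
    have h6 : a.coeff j = u j := by
      simp only [a, finsetSum_coeff, coeff_C_mul, coeff_X_pow]
      rw [Finset.sum_eq_single j]
      · simp
      · intro i _ hij
        rw [if_neg, mul_zero]
        intro hji
        exact hij (Fin.ext hji.symm)
      · intro hj
        exact absurd (Finset.mem_univ _) hj
    rw [← h6, ha]
    rfl)
  have hdet : (Matrix.of xi).det ≠ 0 := by
    intro h0
    obtain ⟨v, hv0, hv⟩ := Matrix.exists_mulVec_eq_zero_iff.2 h0
    apply hv0
    apply hxi0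
    intro i
    have h1 := congrFun hv i
    simp only [Matrix.mulVec, dotProduct, Matrix.of_apply, Pi.zero_apply] at h1
    rw [← h1]
    exact Finset.sum_congr rfl fun j _ => mul_comm _ _
  have h2 : ∀ i, 2 ≤ Module.finrank (F (b i)) K := by
    intro i
    have h1 : Module.finrank (F (b i)) K ≠ 1 := fun h0 => hex ⟨_, h0⟩
    have h3 : Module.finrank (F (b i)) K ≠ 0 := by
      intro h0
      obtain ⟨j, hj⟩ := hne i
      apply hj
      rw [Algebra.trace_eq_zero_of_not_exists_basis]
      · rfl
      · rintro ⟨s, ⟨B⟩⟩
        have h4 : FiniteDimensional (F (b i)) K := Module.Finite.of_basis B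
        have h5 := Module.finrank_pos (R := F (b i)) (M := K)
        omega
    omega
  have hgen : ∀ i, F (b i) ⊔ IntermediateField.adjoin ℂ {x} = ⊤ := by
    intro i
    obtain ⟨j, hj⟩ := hne i
    exact gen_of_trace h (F (b i)) (hlF _) (h2 i) δ hδ (hw (b i)) (j := j) (fun h0 => hj (by
      rw [h0]
      rfl))
  obtain ⟨N, _, _, _, lam, L, e', m, σ, ρ, hLc, hlamL, hLw, hbase, hagree, hρL, hall, hS⟩ :=
    exists_sysJ h hg (fun i => F (b i)) (n := fun i => Module.finrank (F (b i)) K)
      (fun i => hlF _) h2 (fun i => rfl) hgen δ hδ (fun i => w (b i))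
      (fun i => hw _) (fun i => hw0 _) (Matrix.of xi) hdet (fun i a ha => hxi i a (by
        rw [← ha]
        rfl))
  exact asmG_sub h lam L hlamL hLw σ ρ (fun i => hbase (Sum.inl i)) (fun i => hbase (Sum.inr i))
    hρL hS (fun i => F (b i)) (fun i => hr _) hgen (fun i => rfl)
    (fun i => by have := h2 i; omega) hagree K₀ e

end Vale.Agent.P297.Jj
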