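import Vale.Agent.P297.Gg.Setup
import Vale.Agent.P297.Jj.Dom
import Vale.Agent.P297.Gg.H516.Hybrid

/-!
The generic fibres of several quotients: differential forms.
-/

set_option linter.unusedSectionVars false
set_option linter.style.haveILetI false

open CategoryTheory AlgebraicGeometry IntermediateField Polynomial

namespace Vale.Agent.P297.Jj

open Vale.Agent.P297 Vale.Agent.P297.H839 Vale.Agent.P297.H516 Vale.Agent.P297.H878
  Vale.Agent.P297.Gen Vale.Agent.P297.Gg

variable {K : Type} [Field K] [Algebra ℂ K] {N : Type} [Field N] [Algebra ℂ N] [IsAlgClosed N]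
  {g : ℕ} {l x y : K} {f : (IntermediateField.adjoin ℂ {l})[X]}

/-- Everything that is needed for the conclusion. -/
theorem exists_sysJ (h : HPencil g l x y f) (hg : 1 ≤ g) (F : Fin g → IntermediateField ℂ K)
    {n : Fin g → ℕ} (hlF : ∀ b, l ∈ F b) (hn2 : ∀ b, 2 ≤ n b)
    (hdeg : ∀ b, Module.finrank (F b) K = n b)
    (hgen : ∀ b, F b ⊔ IntermediateField.adjoin ℂ {x} = ⊤)
    (δ : Derivation (IntermediateField.adjoin ℂ {l}) K K) (hδ : δ x = 1)
    (w : Fin g → K) (hw : ∀ b, w b ∈ F b) (hw0 : ∀ b, δ (w b) ≠ 0)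
    (xi : Matrix (Fin g) (Fin g) (IntermediateField.adjoin ℂ {l})) (hxi0 : xi.det ≠ 0)
    (hxi : ∀ i (a : Fin g → IntermediateField.adjoin ℂ {l}),
      ∑ j, (a j : K) * (Algebra.trace (F i) K (x ^ (j : ℕ) / (y * δ (w i))) : K) = 0 →
        ∑ j, a j * xi i j = 0) :
    ∃ (N : Type) (_ : Field N) (_ : Algebra ℂ N) (_ : IsAlgClosed N)
      (lam : IntermediateField.adjoin ℂ {l} →ₐ[ℂ] N) (L : IntermediateField ℂ N) (e m : ℕ)
      (σ : (Σ b, Fin (n b)) → (K →ₐ[ℂ] N)) (ρ : Fin e → (K →ₐ[ℂ] N)),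
      (∀ v, IsAlgebraic L v → v ∈ L) ∧ (∀ r, lam r ∈ L) ∧
      (∀ w, w ∉ L → AlgebraicIndependent ℂ
        ![lam ⟨l, IntermediateField.mem_adjoin_simple_self ℂ l⟩, w]) ∧
      (∀ i (r : IntermediateField.adjoin ℂ {l}), Sum.elim σ ρ i r = lam r) ∧
      (∀ b i j, ∀ k ∈ F b, σ ⟨b, i⟩ k = σ ⟨b, j⟩ k) ∧
      (∀ k, ρ k x ∈ L) ∧
      (∀ M : IntermediateField ℂ N, (∀ v, IsAlgebraic M v → v ∈ M) → L ≤ M →
        (∀ i, σ i x ∈ M) → ∀ v, v ∈ M) ∧
      SysG L (f.map lam.toRingHom) g m (blk (n := n) (κ := Fin e))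
        (fun i => Sum.elim σ ρ i x) (fun i => Sum.elim σ ρ i y) := by
  classical
  obtain ⟨N, _, _, _, u, hu⟩ := exists_bigG (Option (Option (Fin g)))
  -- the base
  have h01 : AlgebraicIndependent ℂ ![u none, u (some none)] := by
    refine (pair_iff _ _).2 ⟨hu.ind.transcendental none, fun h0 => ?_⟩
    have h1 := hu.notMem (s := {none}) (i := some none) (by simp)
    rw [Set.image_singleton, mem_cl0] at h1
    exact h1 h0
  obtain ⟨lam, hlam⟩ := exists_lamG h h01
  let s₀ : Set (Option (Option (Fin g))) := {none, some none}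
  obtain ⟨L, hLdef⟩ : ∃ L : IntermediateField ℂ N, L = cl0 (u '' s₀) := ⟨_, rfl⟩
  have hLc : ∀ v, IsAlgebraic L v → v ∈ L := by
    rw [hLdef]
    exact cl0_closed _
  have hu0 : u none ∈ L := by
    rw [hLdef]
    exact subset_cl0 _ ⟨none, Or.inl rfl, rfl⟩
  have hu1 : u (some none) ∈ L := by
    rw [hLdef]
    exact subset_cl0 _ ⟨some none, Or.inr rfl, rfl⟩
  have hlamL : ∀ r, lam r ∈ L := lam_mem lam L (by rw [hlam]; exact hu0)
  have hLw : ∀ w, w ∉ L → AlgebraicIndependent ℂ
      ![lam ⟨l, IntermediateField.mem_adjoin_simple_self ℂ l⟩, w] := by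
    intro w hw
    rw [hlam]
    refine (pair_iff _ _).2 ⟨hu.ind.transcendental none, fun h0 => hw ?_⟩
    have h1 : w ∈ cl0 ({u none} : Set N) := mem_cl0.2 h0
    exact cl0_le hLc (by rintro _ rfl; exact hu0) h1
  have hub : ∀ b : Fin g, u (some (some b)) ∉ L := by
    intro b
    rw [hLdef]
    exact hu.notMem (by simp [s₀])
  -- the blocks
  have hfam := fun b => exists_famG h lam L hlamL (F b) (hlF b) (hgen b) (hdeg b)
    (by have := hn2 b; omega) (hLw _ (hub b))
  choose σ₀ hσ₀ using hfam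
  let σ : (Σ b, Fin (n b)) → (K →ₐ[ℂ] N) := fun s => σ₀ s.1 s.2
  -- the free point
  obtain ⟨y', hy'⟩ := IsAlgClosed.exists_pow_nat_eq
    ((f.map lam.toRingHom).eval (u (some none))) two_pos
  obtain ⟨Θ, hΘ, hΘx, hΘy⟩ := h.emb lam (z' := u (some none)) (y' := y') (by
    rw [hlam]
    exact h01) hy'
  let e : ℕ := ((∑ b, n b) + g) % 2
  have he : e < 2 := Nat.mod_lt _ two_pos
  let ρ : Fin e → (K →ₐ[ℂ] N) := fun _ => Θ
  have hbase : ∀ i (r : IntermediateField.adjoin ℂ {l}), Sum.elim σ ρ i r = lam r := by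
    rintro (i | i) r
    · exact (hσ₀ i.1).base i.2 r
    · exact hΘ r
  -- closed subfields
  let M : Fin g → IntermediateField ℂ N := fun b => cl0 (u '' {some (some b)}ᶜ)
  have hMc : ∀ b v, IsAlgebraic (M b) v → v ∈ M b := fun b => cl0_closed _
  have hLM : ∀ b, L ≤ M b := by
    intro b
    rw [hLdef]
    apply cl0_mono
    apply Set.image_mono
    rintro i (rfl | rfl) <;> simp
  have hubM : ∀ b, u (some (some b)) ∉ M b := fun b => hu.notMem (by simp)
  have hucM : ∀ b c, c ≠ b → u (some (some c)) ∈ M b := by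
    intro b c hcb
    refine subset_cl0 _ ⟨some (some c), ?_, rfl⟩
    simp only [Set.mem_compl_iff, Set.mem_singleton_iff, Option.some.injEq]
    exact hcb
  have hσM : ∀ b i, σ₀ b i x ∉ M b := fun b i hi =>
    hubM b ((hσ₀ b).down i (M b) (hMc b) (hLM b) hi)
  have hσM' : ∀ b c, c ≠ b → ∀ i, σ₀ c i x ∈ M b := fun b c hcb i =>
    (hσ₀ c).up i (M b) (hMc b) (hLM b) (hucM b c hcb)
  have hnotL : ∀ i : Σ b, Fin (n b), σ i x ∉ L := fun i hi => hσM i.1 i.2 (hLM i.1 hi)
  have hρL : ∀ k, ρ k x ∈ L := fun k => by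
    change Θ x ∈ L
    rw [hΘx]
    exact hu1
  have hinj : Function.Injective fun i => Sum.elim σ ρ i x := by
    rintro (⟨b, i⟩ | i) (⟨c, j⟩ | j) hij
    · have hij' : σ₀ b i x = σ₀ c j x := hij
      by_cases hbc : c = b
      · subst hbc
        exact congrArg (fun k => Sum.inl (Sigma.mk c k)) ((hσ₀ c).inj hij')
      · exact absurd (hij' ▸ hσM' b c hbc j) (hσM b i)
    · exact absurd (show σ ⟨b, i⟩ x ∈ L from (show σ ⟨b, i⟩ x = ρ j x from hij) ▸ hρL j)
        (hnotL ⟨b, i⟩)
    · exact absurd (show σ ⟨c, j⟩ x ∈ L from (show ρ i x = σ ⟨c, j⟩ x from hij) ▸ hρL i)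
        (hnotL ⟨c, j⟩)
    · have h1 := i.2
      have h2 := j.2
      exact congrArg Sum.inr (Fin.ext (by omega))
  have hall : ∀ M' : IntermediateField ℂ N, (∀ v, IsAlgebraic M' v → v ∈ M') → L ≤ M' →
      (∀ b, u (some (some b)) ∈ M') → ∀ v, v ∈ M' := by
    intro M' hM' hL' hb
    refine hu.all M' hM' ?_
    rintro (_ | _ | b)
    · exact hL' hu0
    · exact hL' hu1
    · exact hb b
  have halg : ∀ b i (v : N), IsAlgebraic (IntermediateField.adjoin (M b) {σ₀ b i x}) v := by
    intro b i v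
    rw [← mem_clo]
    refine hall (clo (M b) {σ₀ b i x}) (clo_closed _ _) ((hLM b).trans (le_clo _ _)) ?_ v
    intro c
    by_cases hcb : c = b
    · subst hcb
      exact (hσ₀ c).down i _ (clo_closed _ _) ((hLM c).trans (le_clo _ _))
        (subset_clo _ _ (Set.mem_singleton _))
    · exact le_clo _ _ (hucM b c hcb)
  have hmem : ∀ (M' : IntermediateField ℂ N) (_ : ∀ v, IsAlgebraic M' v → v ∈ M') (_ : L ≤ M')
      (i : (Σ b, Fin (n b)) ⊕ Fin e), Sum.elim σ ρ i x ∈ M' → ∀ k, Sum.elim σ ρ i k ∈ M' := by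
    intro M' hM' hL' i hi k
    refine h.range_mem hM' ?_ hi k
    have e1 := hbase i ⟨l, IntermediateField.mem_adjoin_simple_self ℂ l⟩
    change Sum.elim σ ρ i l = _ at e1
    rw [e1]
    exact hL' (hlamL _)
  have hcard : Fintype.card ((Σ b, Fin (n b)) ⊕ Fin e) = (∑ b, n b) + e := by
    rw [Fintype.card_sum, Fintype.card_sigma, Fintype.card_fin]
    simp
  have hsum2 : 2 * g ≤ ∑ b, n b := by
    have h1 : ∑ _b : Fin g, 2 ≤ ∑ b, n b := Finset.sum_le_sum fun b _ => hn2 b
    simp only [Finset.sum_const, Finset.card_univ, Fintype.card_fin, smul_eq_mul] at h1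
    omega
  have hdet : ∀ e : Fin g → N, (∀ j : Fin g, ∑ b, σ ⟨b, ⟨0, by have := hn2 b; omega⟩⟩
      (Algebra.trace (F b) K (x ^ (j : ℕ) / (y * δ (w b)))) * e b = 0) → e = 0 := by
    intro e he
    have hA := hybrid h lam (fun b => σ₀ b ⟨0, by have := hn2 b; omega⟩)
      (fun b r => (hσ₀ b).base _ r) M hMc (fun b r => hLM b (hlamL r))
      (fun i j hij => hσM' i j hij.ne _) (fun i => hσM i _)
      (fun i j => (Algebra.trace (F i) K (x ^ (j : ℕ) / (y * δ (w i))) : K)) xi hxi0 hxi
    apply Matrix.eq_zero_of_vecMul_eq_zero hA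
    funext j
    rw [Matrix.vecMul, dotProduct, Pi.zero_apply, ← he j]
    exact Finset.sum_congr rfl fun b _ => mul_comm _ _
  refine ⟨N, inferInstance, inferInstance, inferInstance, lam, L, e,
    ((∑ b, n b) + g + e) / 2, σ, ρ, hLc, hlamL, hLw, hbase,
    fun b i j k hk => (hσ₀ b).agree i j k hk, hρL, ?_, ?_⟩
  · intro M' hM' hL' hσ' v
    refine hall M' hM' hL' (fun b => ?_) v
    exact (hσ₀ b).down ⟨0, by have := hn2 b; omega⟩ M' hM' hL' (hσ' ⟨b, ⟨0, _⟩⟩)
  · refine ⟨?_, h.sep.map (f := lam.toRingHom), hg, ?_, ?_, ?_, ?_, hinj, ?_, ?_, ?_, ?_, ?_, ?_,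
      ?_, ?_⟩
    · intro k
      rw [coeff_map]
      exact hlamL _
    · rw [natDegree_map]
      exact h.high
    · rw [natDegree_map]
      exact h.low
    · rw [hcard]
      have : e = ((∑ b, n b) + g) % 2 := rfl
      omega
    · rw [hcard]
      have : e = ((∑ b, n b) + g) % 2 := rfl
      omega
    · intro i
      rw [← map_pow, h.eq, Polynomial.eval_map, Polynomial.aeval_def]
      refine (Polynomial.hom_eval₂ f _ (Sum.elim σ ρ i).toRingHom x).trans ?_
      congr 1
      exact RingHom.ext fun r => hbase i r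
    · rintro (i | i) hi
      · simp [blk] at hi
      · exact hρL i
    · rintro (i | i) h0
      · exact hnotL i (by
          have h0' : σ i x = 0 := h0
          rw [h0']
          exact zero_mem _)
      · have h0' : Θ x = 0 := h0
        rw [hΘx] at h0'
        have h1 := hu.notMem (s := ∅) (i := some none) (by simp)
        rw [h0'] at h1
        exact h1 (zero_mem _)
    · intro α β Q hQ0 hV hN i
      rcases i with i | i
      · intro M' hM' hL' hQ'
        exact dom_J h lam L hlamL (fun b => by have := hn2 b; omega) σ ρ hbase hinj F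
          hdeg (fun b i j => (hσ₀ b).agree i j) δ hδ w hw hw0 hdet α β Q hQ0 hV hN
          M' hM' hL' (fun k => hL' (hρL k)) hQ' i
      · exact Cl.of_L (hρL i)
    · intro T hT
      obtain ⟨b, hb⟩ := hu.big (g := g) L (fun b => some (some b)) (fun b c hbc => by simpa using hbc)
        s₀ (by simp [s₀]) hLdef T hT
      refine ⟨Sum.inl ⟨b, ⟨0, by have := hn2 b; omega⟩⟩, fun hcl => hb ?_⟩
      exact (hσ₀ b).down ⟨0, by have := hn2 b; omega⟩ _ (clo_closed _ _) (le_clo _ _)
        (cl_iff.1 hcl)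
    · rintro b (⟨c, i⟩ | i) (⟨d, j⟩ | j) hi hj
      · have hc : c = b := by simpa [blk] using hi
        have hd : d = b := by simpa [blk] using hj
        subst hc
        subst hd
        intro M' hM' hL' hS
        exact (hσ₀ d).up j M' hM' hL' ((hσ₀ d).down i M' hM' hL' (hS rfl))
      · simp [blk] at hj
      · simp [blk] at hi
      · simp [blk] at hi
    · rintro b (⟨c, i⟩ | i) hi
      · have hc : c = b := by simpa [blk] using hi
        subst hc
        have h2 := hn2 c
        by_cases hi0 : i = ⟨0, by omega⟩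
        · refine ⟨Sum.inl ⟨c, ⟨1, by omega⟩⟩, rfl, ?_⟩
          rw [hi0]
          intro hcon
          have h3 := Sum.inl_injective hcon
          have h4 := eq_of_heq (Sigma.mk.inj h3).2
          simp at h4
        · refine ⟨Sum.inl ⟨c, ⟨0, by omega⟩⟩, rfl, ?_⟩
          intro hcon
          have h3 := Sum.inl_injective hcon
          exact hi0 (eq_of_heq (Sigma.mk.inj h3).2)
      · simp [blk] at hi
    · rintro b (⟨c, i⟩ | i) (⟨d, j⟩ | j) hi hj hij
      · have hc : c = b := by simpa [blk] using hi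
        have hd : d = b := by simpa [blk] using hj
        subst hc
        subst hd
        obtain ⟨θ, hθ, hθx, π, hπ⟩ := autG h hlamL (hσ₀ d) (hMc d) (hLM d) (hσM d) (halg d) i j
        refine ⟨θ, fun v hv => hθ v (hLM d hv), hθx,
          Equiv.sumCongr (Equiv.sigmaCongrRight
            (Function.update (fun c => Equiv.refl (Fin (n c))) d π)) (Equiv.refl _), ?_⟩
        rintro (⟨c, k⟩ | k)
        · by_cases hcd : c = d
          · subst hcd
            have h5 : Function.update (fun c => Equiv.refl (Fin (n c))) c π c = π :=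
              Function.update_self _ _ _
            change θ (σ₀ c k x) = σ₀ c ((Function.update (fun c => Equiv.refl (Fin (n c))) c π c) k) x
              ∧ θ (σ₀ c k y) = σ₀ c ((Function.update (fun c => Equiv.refl (Fin (n c))) c π c) k) y
            rw [h5]
            exact hπ k
          · have h5 : Function.update (fun c => Equiv.refl (Fin (n c))) d π c = Equiv.refl _ :=
              Function.update_of_ne hcd _ _
            change θ (σ₀ c k x) = σ₀ c ((Function.update (fun c => Equiv.refl (Fin (n c))) d π c) k) x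
              ∧ θ (σ₀ c k y) = σ₀ c ((Function.update (fun c => Equiv.refl (Fin (n c))) d π c) k) y
            rw [h5]
            have h6 := hmem (M d) (hMc d) (hLM d) (Sum.inl ⟨c, k⟩) (hσM' d c hcd k)
            exact ⟨hθ _ (h6 x), hθ _ (h6 y)⟩
        · have h6 := hmem (M d) (hMc d) (hLM d) (Sum.inr k) (hLM d (hρL k))
          exact ⟨hθ _ (h6 x), hθ _ (h6 y)⟩
      · simp [blk] at hj
      · simp [blk] at hi
      · simp [blk] at hi

end Vale.Agent.P297.Jj
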